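import Vale.Agent.Lib.P331.Log.Defs

open MeasureTheory Finset
open scoped NNReal ENNReal

noncomputable section
namespace Vale.Agent.Lib.P331.Log
open Vale.Agent.Lib.P331
variable {n : ℕ}

/-- sign of the coordinate `e` -/
def cbEps (o : Fin n → Bool) (e : Fin n) (W : Fin n → Bool) : ℤ :=
  if xor (W e) (o e) = true then 1 else -1

/-- flip a coordinate -/
def cbFlip (e : Fin n) (W : Fin n → Bool) : Fin n → Bool := Function.update W e (!W e)

theorem cbFlip_invol (e : Fin n) : Function.Involutive (cbFlip e) := by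
  intro W
  funext i
  by_cases h : i = e
  · subst h; simp [cbFlip]
  · simp [cbFlip, Function.update_of_ne h]

theorem cbEps_flip_same (o : Fin n → Bool) (e : Fin n) (W : Fin n → Bool) :
    cbEps o e (cbFlip e W) = - cbEps o e W := by
  unfold cbEps cbFlip
  simp only [Function.update_self]
  cases W e <;> cases o e <;> simp

theorem cbEps_flip_ne (o : Fin n → Bool) (e f : Fin n) (h : f ≠ e) (W : Fin n → Bool) :
    cbEps o f (cbFlip e W) = cbEps o f W := by
  unfold cbEps cbFlip
  rw [Function.update_of_ne h]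

theorem cb_ortho (o : Fin n → Bool) (e f : Fin n) (h : f ≠ e) :
    ∑ W : Fin n → Bool, cbEps o e W * cbEps o f W = 0 := by
  have h1 : ∑ W : Fin n → Bool, cbEps o e (cbFlip e W) * cbEps o f (cbFlip e W) =
      ∑ W : Fin n → Bool, cbEps o e W * cbEps o f W :=
    Equiv.sum_comp (Function.Involutive.toPerm (cbFlip e) (cbFlip_invol e))
      (fun W => cbEps o e W * cbEps o f W)
  have h2 : ∑ W : Fin n → Bool, cbEps o e (cbFlip e W) * cbEps o f (cbFlip e W) =
      - ∑ W : Fin n → Bool, cbEps o e W * cbEps o f W := by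
    rw [← Finset.sum_neg_distrib]
    refine Finset.sum_congr rfl fun W _ => ?_
    rw [cbEps_flip_same, cbEps_flip_ne o e f h]
    ring
  omega

theorem cb_diag (o : Fin n → Bool) (e : Fin n) (W : Fin n → Bool) :
    cbEps o e W * cbEps o e W = 1 := by
  unfold cbEps
  split_ifs <;> simp

theorem cb_sum_sq (B : Finset (Fin n)) (o : Fin n → Bool) :
    ∑ W : Fin n → Bool, (∑ e ∈ B, cbEps o e W) ^ 2 = (B.card : ℤ) * 2 ^ n := by
  classical
  have h1 : ∀ W : Fin n → Bool, (∑ e ∈ B, cbEps o e W) ^ 2 =
      ∑ e ∈ B, ∑ f ∈ B, cbEps o e W * cbEps o f W := by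
    intro W
    rw [sq, Finset.sum_mul_sum]
  simp only [h1]
  rw [Finset.sum_comm]
  have h2 : ∀ e ∈ B, ∑ W : Fin n → Bool, ∑ f ∈ B, cbEps o e W * cbEps o f W = (2 : ℤ) ^ n := by
    intro e he
    rw [Finset.sum_comm]
    rw [← Finset.add_sum_erase B _ he]
    have h3 : ∑ f ∈ B.erase e, ∑ W : Fin n → Bool, cbEps o e W * cbEps o f W = 0 := by
      refine Finset.sum_eq_zero fun f hf => ?_
      exact cb_ortho o e f (Finset.ne_of_mem_erase hf)
    rw [h3, add_zero]
    simp only [cb_diag]
    simp [Finset.card_univ]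
  rw [Finset.sum_congr rfl h2]
  simp

theorem cb_sum_eq (B : Finset (Fin n)) (o : Fin n → Bool) (W : Fin n → Bool) :
    ∑ e ∈ B, cbEps o e W =
      2 * ((B.filter (fun e => xor (W e) (o e) = true)).card : ℤ) - B.card := by
  classical
  have h1 : ∀ e ∈ B, cbEps o e W = 2 * (if xor (W e) (o e) = true then (1 : ℤ) else 0) - 1 := by
    intro e _
    unfold cbEps
    split_ifs <;> norm_num
  rw [Finset.sum_congr rfl h1, Finset.sum_sub_distrib, ← Finset.mul_sum]
  simp [Finset.natCast_card_filter]

/-- Chebyshev over coin flips: for a fixed orientation `o` and a set `B`, the number of `W` such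
that fewer than a quarter of `B` has `xor (W e) (o e) = true` is at most `2^n * 4 / |B|`. -/
theorem chebyshev_flip (B : Finset (Fin n)) (o : Fin n → Bool) :
    (univ.filter (fun W : Fin n → Bool =>
        4 * (B.filter (fun e => xor (W e) (o e) = true)).card < B.card)).card * B.card
      ≤ 4 * 2 ^ n := by
  classical
  rcases Nat.eq_zero_or_pos B.card with h0 | hpos
  · rw [h0]; simp
  set bad := univ.filter (fun W : Fin n → Bool =>
        4 * (B.filter (fun e => xor (W e) (o e) = true)).card < B.card) with hbad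
  have hkey : ((bad.card : ℤ)) * (B.card : ℤ) ^ 2 ≤ 4 * ((B.card : ℤ) * 2 ^ n) := by
    rw [← cb_sum_sq B o, Finset.mul_sum]
    calc (bad.card : ℤ) * (B.card : ℤ) ^ 2 = ∑ _W ∈ bad, (B.card : ℤ) ^ 2 := by
          rw [Finset.sum_const, nsmul_eq_mul]
      _ ≤ ∑ W ∈ bad, 4 * (∑ e ∈ B, cbEps o e W) ^ 2 := by
          refine Finset.sum_le_sum fun W hW => ?_
          have hW' := (Finset.mem_filter.1 hW).2
          rw [cb_sum_eq]
          have hlt : 4 * ((B.filter (fun e => xor (W e) (o e) = true)).card : ℤ) < B.card := by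
            exact_mod_cast hW'
          set X : ℤ := ((B.filter (fun e => xor (W e) (o e) = true)).card : ℤ)
          have hX : 0 ≤ X := Int.natCast_nonneg _
          set b : ℤ := (B.card : ℤ)
          nlinarith
      _ ≤ ∑ W : Fin n → Bool, 4 * (∑ e ∈ B, cbEps o e W) ^ 2 := by
          refine Finset.sum_le_sum_of_subset_of_nonneg (Finset.subset_univ _) ?_
          intro W _ _
          positivity
  have hb : (0 : ℤ) < B.card := by exact_mod_cast hpos
  have h3 : (bad.card : ℤ) * (B.card : ℤ) ≤ 4 * 2 ^ n := by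
    have : (B.card : ℤ) * ((bad.card : ℤ) * (B.card : ℤ)) ≤ (B.card : ℤ) * (4 * 2 ^ n) := by
      nlinarith
    exact le_of_mul_le_mul_left this hb
  exact_mod_cast h3

end Vale.Agent.Lib.P331.Log
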