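import Vale.Agent.Lib.P331.Defs

/-!
P331: every matroid of rank at most `r` has a one-sample rule against the almighty adversary with
ratio `1 / (252 * (1 + log₂ r))`.  Seeds: a level `p ≤ log₂ r` and one coin per element.
Paper: papers row P331/helper8log.
-/

open MeasureTheory Finset
open scoped NNReal ENNReal

noncomputable section

namespace Vale.Agent.Lib.P331.Log

open Vale.Agent.Lib.P331

variable {n : ℕ}

/-- `OPT_M(v)` for a matroid on `Fin n`. -/
def optM (M : Matroid (Fin n)) (v : Fin n → ℝ≥0) : ℝ≥0∞ :=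
  ⨆ (I : Finset (Fin n)) (_ : M.Indep (I : Set (Fin n))), ∑ e ∈ I, (v e : ℝ≥0∞)

/-- Seeds: a level and one coin per element (uniform on this finite type). -/
abbrev SeedL (L n : ℕ) : Type := Fin (L + 1) × (Fin n → Bool)

/-- The record `recV x b e` is above the threshold of level `p`: there is no independent set of
size `2 ^ p` all of whose sample records exceed it. -/
def Beats (M : Matroid (Fin n)) (p : ℕ) (s : Fin n → ℝ≥0) (b : Fin n → Bool) (e : Fin n)
    (x : ℝ≥0) : Prop :=
  ¬ ∃ I : Finset (Fin n), M.Indep (I : Set (Fin n)) ∧ I.card = 2 ^ p ∧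
      ∀ f ∈ I, recV x b e < recS s b f

/-- The rule: at level `p`, accept `e` iff its value record beats the threshold and `e` is
independent of what has been accepted. -/
def ruleL (M : Matroid (Fin n)) (L : ℕ) : OnlineRule n (SeedL L n) where
  accept s r acc e x := Beats M r.1 s r.2 e x ∧ M.Indep (insert e (acc : Set (Fin n)))

/-- witness of a gain of `N * s e` at level `p` -/
def Witness (M : Matroid (Fin n)) (p N : ℕ) (b : Fin n → Bool) (ω : Fin n → ℝ≥0 × ℝ≥0)
    (e : Fin n) (I : Finset (Fin n)) : Prop :=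
  M.Indep (I : Set (Fin n)) ∧ I.card = N ∧
    (∀ f ∈ I, Beats M p (fun i => (ω i).1) b f (ω f).2) ∧
    (∀ f, Beats M p (fun i => (ω i).1) b f (ω f).2 → (ω e).1 ≤ (ω f).2)

open Classical in
/-- measurable lower bound on the gain at level `p`, with `N = 2 ^ (p - 2)` -/
def HL (M : Matroid (Fin n)) (p : ℕ) (b : Fin n → Bool) (ω : Fin n → ℝ≥0 × ℝ≥0) : ℝ≥0∞ :=
  ⨆ (e : Fin n) (I : Finset (Fin n)),
    if Witness M p (2 ^ (p - 2)) b ω e I then ((2 ^ (p - 2) : ℕ) : ℝ≥0∞) * ((ω e).1 : ℝ≥0∞) else 0

/-- The `1 × n` rational matrix with a one at each non-loop. Its parts: all non-loops. -/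
def A0 (M : Matroid (Fin n)) : Matrix (Fin 1) (Fin n) ℚ :=
  by classical exact fun _ e => if M.Indep ({e} : Set (Fin n)) then 1 else 0

/-- hi value: the larger of sample and value -/
def hiv (ω : Fin n → ℝ≥0 × ℝ≥0) (e : Fin n) : ℝ≥0 := max (ω e).1 (ω e).2

open Classical in
/-- `T M x j`: the max-min over independent sets of size `2 ^ j` of `x` (`0` if there is none). -/
def T (M : Matroid (Fin n)) (x : Fin n → ℝ≥0) (j : ℕ) : ℝ≥0 :=
  (univ.filter (fun I : Finset (Fin n) => M.Indep (I : Set (Fin n)) ∧ I.card = 2 ^ j)).sup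
    (fun I => if h : I.Nonempty then I.inf' h x else 0)

end Vale.Agent.Lib.P331.Log
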