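import Vale.Agent.Lib.P331.Log.Defs
import Vale.Agent.Lib.P331.Log.Cheb

open MeasureTheory Finset
open scoped NNReal ENNReal

noncomputable section
namespace Vale.Agent.Lib.P331.Log
open Vale.Agent.Lib.P331
variable {n : ℕ}

theorem gd_recS_flip (W b : Fin n → Bool) (ω : Fin n → ℝ≥0 × ℝ≥0) (e : Fin n) :
    recS (fun i => (flipω W ω i).1) (flipb W b) e =
      if W e then recV (ω e).2 b e else recS (fun i => (ω i).1) b e := by
  by_cases h : W e <;> cases hb : b e <;> simp [recS, recV, flipω, flipb, keyS, keyV, h, hb]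

theorem gd_recV_flip (W b : Fin n → Bool) (ω : Fin n → ℝ≥0 × ℝ≥0) (e : Fin n) :
    recV (flipω W ω e).2 (flipb W b) e =
      if W e then recS (fun i => (ω i).1) b e else recV (ω e).2 b e := by
  by_cases h : W e <;> cases hb : b e <;> simp [recS, recV, flipω, flipb, keyS, keyV, h, hb]

/-- max-min over a finite family of nonempty sets -/
theorem gd_maxmin {α : Type*} [LinearOrder α] (𝓘 : Finset (Finset (Fin n))) (hne : 𝓘.Nonempty)
    (hI : ∀ I ∈ 𝓘, I.Nonempty) (r : Fin n → α) :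
    ∃ I ∈ 𝓘, ∃ e ∈ I, (∀ g ∈ I, r e ≤ r g) ∧ ∀ J ∈ 𝓘, ∃ g ∈ J, r g ≤ r e := by
  classical
  obtain ⟨I0, hI0⟩ := hne
  obtain ⟨e00, _⟩ := hI I0 hI0
  have : Nonempty (Fin n) := ⟨e00⟩
  have hm : ∀ I ∈ 𝓘, ∃ e ∈ I, ∀ g ∈ I, r e ≤ r g := fun I hIm =>
    Finset.exists_min_image I r (hI I hIm)
  choose! m hm1 hm2 using hm
  obtain ⟨I, hIm, hmax⟩ := Finset.exists_max_image 𝓘 (fun I => r (m I)) ⟨I0, hI0⟩
  exact ⟨I, hIm, m I, hm1 I hIm, hm2 I hIm, fun J hJ => ⟨m J, hm1 J hJ, hmax J hJ⟩⟩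

private def gdval (r : ℝ≥0 ×ₗ ℕ) : ℝ≥0 := (ofLex r).1

private theorem gdval_mono {r r' : ℝ≥0 ×ₗ ℕ} (h : r ≤ r') : gdval r ≤ gdval r' := by
  rw [Prod.Lex.le_iff] at h
  rcases h with h | h
  · exact h.le
  · exact h.1.le

private theorem gd_lt_of_val {x y : ℝ≥0} {k l : ℕ} (h : x < y) :
    (toLex (x, k) : ℝ≥0 ×ₗ ℕ) < toLex (y, l) := by
  rw [Prod.Lex.toLex_lt_toLex]
  exact Or.inl h

/-- The fixed `W` step: a good `W` gives a witness. -/
private theorem gd_step (M : Matroid (Fin n)) (p : ℕ) (b : Fin n → Bool)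
    (ω : Fin n → ℝ≥0 × ℝ≥0) (hi : Fin n → ℝ≥0 ×ₗ ℕ) (B0 B2 : Finset (Fin n)) (e0 e2 : Fin n)
    (W : Fin n → Bool)
    (hB2 : M.Indep (B2 : Set (Fin n))) (hB0 : M.Indep (B0 : Set (Fin n)))
    (hmin2 : ∀ g ∈ B2, hi e2 ≤ hi g) (hmin0 : ∀ g ∈ B0, hi e0 ≤ hi g)
    (hmax0 : ∀ J : Finset (Fin n), M.Indep (J : Set (Fin n)) → J.card = 2 ^ p →
      ∃ g ∈ J, hi g ≤ hi e0)
    (hTle : T M (hiv ω) (p + 2) ≤ gdval (hi e2))
    (S2 S0 : Finset (Fin n)) (hS2 : S2 ⊆ B2) (hS0 : S0 ⊆ B0)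
    (hcS2 : 2 ^ p ≤ S2.card) (hcS0 : 2 ^ (p - 2) ≤ S0.card)
    (hF1 : ∀ e ∈ S2, recS (fun i => (flipω W ω i).1) (flipb W b) e = hi e)
    (hF2 : ∀ e ∈ S0, recV (flipω W ω e).2 (flipb W b) e = hi e)
    (hF3 : ∀ e, recS (fun i => (flipω W ω i).1) (flipb W b) e ≤ hi e) :
    ((2 ^ (p - 2) : ℕ) : ℝ≥0∞) * (T M (hiv ω) (p + 2) : ℝ≥0∞) ≤
      HL M p (flipb W b) (flipω W ω) := by
  classical
  set rs' : Fin n → ℝ≥0 ×ₗ ℕ := fun e => recS (fun i => (flipω W ω i).1) (flipb W b) e with hrs'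
  set 𝓘 : Finset (Finset (Fin n)) :=
    univ.filter (fun I : Finset (Fin n) => M.Indep (I : Set (Fin n)) ∧ I.card = 2 ^ p) with h𝓘
  obtain ⟨I', hI'sub, hI'c⟩ := Finset.exists_subset_card_eq hcS2
  have hI'mem : I' ∈ 𝓘 := by
    simp only [h𝓘, mem_filter, mem_univ, true_and]
    exact ⟨hB2.subset (by exact_mod_cast hI'sub.trans hS2), hI'c⟩
  have h𝓘ne : ∀ I ∈ 𝓘, I.Nonempty := by
    intro I hI
    simp only [h𝓘, mem_filter, mem_univ, true_and] at hI
    rw [← Finset.card_pos, hI.2]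
    positivity
  obtain ⟨Is, hIs, es, hes, hsmin, hsmax⟩ := gd_maxmin 𝓘 ⟨I', hI'mem⟩ h𝓘ne rs'
  have hIs' : M.Indep (Is : Set (Fin n)) ∧ Is.card = 2 ^ p := by
    simpa [h𝓘] using hIs
  -- `hi e2 ≤ rs' es`
  have h2le : hi e2 ≤ rs' es := by
    obtain ⟨g, hg, hgle⟩ := hsmax I' hI'mem
    have hgS2 : g ∈ S2 := hI'sub hg
    have : rs' g = hi g := hF1 g hgS2
    calc hi e2 ≤ hi g := hmin2 g (hS2 hgS2)
      _ = rs' g := this.symm
      _ ≤ rs' es := hgle
  have hval : T M (hiv ω) (p + 2) ≤ (flipω W ω es).1 := by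
    refine hTle.trans ?_
    exact gdval_mono h2le
  obtain ⟨I2, hI2sub, hI2c⟩ := Finset.exists_subset_card_eq hcS0
  have hwit : Witness M p (2 ^ (p - 2)) (flipb W b) (flipω W ω) es I2 := by
    refine ⟨hB0.subset (by exact_mod_cast hI2sub.trans hS0), hI2c, ?_, ?_⟩
    · intro f hf
      rintro ⟨I, hI, hIc, hIlt⟩
      have hIm : I ∈ 𝓘 := by
        simp only [h𝓘, mem_filter, mem_univ, true_and]
        exact ⟨hI, hIc⟩
      obtain ⟨g, hg, hgle⟩ := hsmax I hIm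
      have h1 : recV (flipω W ω f).2 (flipb W b) f < rs' es := (hIlt g hg).trans_le hgle
      have hfS0 : f ∈ S0 := hI2sub hf
      have h3 : recV (flipω W ω f).2 (flipb W b) f = hi f := hF2 f hfS0
      obtain ⟨g', hg', hg'le⟩ := hmax0 Is hIs'.1 hIs'.2
      have h4 : rs' es ≤ hi f :=
        calc rs' es ≤ rs' g' := hsmin g' hg'
          _ ≤ hi g' := hF3 g'
          _ ≤ hi e0 := hg'le
          _ ≤ hi f := hmin0 f (hS0 hfS0)
      rw [h3] at h1
      exact absurd h1 (not_lt.mpr h4)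
    · intro f hf
      by_contra hcon
      push Not at hcon
      apply hf
      refine ⟨Is, hIs'.1, hIs'.2, fun g hg => ?_⟩
      have h1 : recV (flipω W ω f).2 (flipb W b) f < rs' es := by
        simp only [hrs', recS, recV]
        exact gd_lt_of_val hcon
      exact h1.trans_le (hsmin g hg)
  unfold HL
  refine le_iSup₂_of_le es I2 ?_
  rw [if_pos hwit]
  gcongr

/-- Flip bound at level `p ≥ 4`: on at least half of the `W`, the flipped configuration has a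
witness of gain `2^(p-2) * T_{p+2}`. -/
theorem flip_good (M : Matroid (Fin n)) (p : ℕ) (hp : 4 ≤ p) (b : Fin n → Bool)
    (ω : Fin n → ℝ≥0 × ℝ≥0) :
    (2 ^ n : ℝ≥0∞) * (2 ^ (p - 3) : ℝ≥0∞) * (T M (hiv ω) (p + 2) : ℝ≥0∞) ≤
      ∑ W : Fin n → Bool, HL M p (flipb W b) (flipω W ω) := by
  classical
  set rs : Fin n → ℝ≥0 ×ₗ ℕ := fun e => recS (fun i => (ω i).1) b e with hrs
  set rv : Fin n → ℝ≥0 ×ₗ ℕ := fun e => recV (ω e).2 b e with hrv
  set hi : Fin n → ℝ≥0 ×ₗ ℕ := fun e => max (rs e) (rv e) with hhi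
  set 𝓙 : ℕ → Finset (Finset (Fin n)) := fun j =>
    univ.filter (fun I : Finset (Fin n) => M.Indep (I : Set (Fin n)) ∧ I.card = 2 ^ j) with h𝓙
  have h𝓙ne : ∀ j, ∀ I ∈ 𝓙 j, I.Nonempty := by
    intro j I hI
    simp only [h𝓙, mem_filter, mem_univ, true_and] at hI
    rw [← Finset.card_pos, hI.2]
    positivity
  by_cases hne : (𝓙 (p + 2)).Nonempty
  swap
  · have hT : T M (hiv ω) (p + 2) = 0 := by
      unfold T
      have : (univ.filter (fun I : Finset (Fin n) =>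
          M.Indep (I : Set (Fin n)) ∧ I.card = 2 ^ (p + 2))) = ∅ :=
        Finset.not_nonempty_iff_eq_empty.mp hne
      rw [this]
      rfl
    rw [hT]
    simp
  obtain ⟨B2, hB2m, e2, he2, hmin2, hmax2⟩ := gd_maxmin (𝓙 (p + 2)) hne (h𝓙ne _) hi
  have hB2' : M.Indep (B2 : Set (Fin n)) ∧ B2.card = 2 ^ (p + 2) := by
    simpa [h𝓙] using hB2m
  -- an independent set of size `2 ^ p`
  have hne0 : (𝓙 p).Nonempty := by
    obtain ⟨J, hJ, hJc⟩ := Finset.exists_subset_card_eq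
      (show 2 ^ p ≤ B2.card by rw [hB2'.2]; exact Nat.pow_le_pow_right (by norm_num) (by omega))
    refine ⟨J, ?_⟩
    simp only [h𝓙, mem_filter, mem_univ, true_and]
    exact ⟨hB2'.1.subset (by exact_mod_cast hJ), hJc⟩
  obtain ⟨B0, hB0m, e0, he0, hmin0, hmax0⟩ := gd_maxmin (𝓙 p) hne0 (h𝓙ne _) hi
  have hB0' : M.Indep (B0 : Set (Fin n)) ∧ B0.card = 2 ^ p := by
    simpa [h𝓙] using hB0m
  -- `T ≤ gdval (hi e2)`
  have hTle : T M (hiv ω) (p + 2) ≤ gdval (hi e2) := by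
    unfold T
    refine Finset.sup_le fun I hI => ?_
    have hInn : I.Nonempty := h𝓙ne (p + 2) I hI
    rw [dif_pos hInn]
    obtain ⟨g, hg, hgle⟩ := hmax2 I hI
    refine (Finset.inf'_le _ hg).trans ?_
    refine le_trans ?_ (gdval_mono hgle)
    have h1 : (ω g).1 ≤ gdval (hi g) := gdval_mono (le_max_left (rs g) (rv g))
    have h2 : (ω g).2 ≤ gdval (hi g) := gdval_mono (le_max_right (rs g) (rv g))
    exact max_le h1 h2
  -- orientation
  set o : Fin n → Bool := fun e => decide (rs e = hi e) with ho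
  have hrvhi : ∀ e, o e = false → rv e = hi e := by
    intro e he
    have hne : rs e ≠ hi e := by simpa [ho] using he
    rcases max_choice (rs e) (rv e) with h | h
    · exact absurd h.symm hne
    · exact h.symm
  have hrshi : ∀ e, o e = true → rs e = hi e := by
    intro e he
    simpa [ho] using he
  -- the flipped sample record
  have hF1 : ∀ (W : Fin n → Bool) (e : Fin n), xor (W e) (o e) = true →
      recS (fun i => (flipω W ω i).1) (flipb W b) e = hi e := by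
    intro W e he
    rw [gd_recS_flip]
    cases hW : W e <;> cases ho' : o e <;> simp [hW, ho'] at he ⊢
    · exact hrshi e ho'
    · exact hrvhi e ho'
  have hF2 : ∀ (W : Fin n → Bool) (e : Fin n), xor (W e) (!o e) = true →
      recV (flipω W ω e).2 (flipb W b) e = hi e := by
    intro W e he
    rw [gd_recV_flip]
    cases hW : W e <;> cases ho' : o e <;> simp [hW, ho'] at he ⊢
    · exact hrvhi e ho'
    · exact hrshi e ho'
  have hF3 : ∀ (W : Fin n → Bool) (e : Fin n),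
      recS (fun i => (flipω W ω i).1) (flipb W b) e ≤ hi e := by
    intro W e
    rw [gd_recS_flip]
    by_cases hW : W e = true
    · simp only [hW, if_true]
      exact le_max_right (rs e) (rv e)
    · simp only [hW]
      exact le_max_left (rs e) (rv e)
  -- Chebyshev
  set bad1 : Finset (Fin n → Bool) := univ.filter (fun W : Fin n → Bool =>
        4 * (B2.filter (fun e => xor (W e) (o e) = true)).card < B2.card) with hbad1
  set bad2 : Finset (Fin n → Bool) := univ.filter (fun W : Fin n → Bool =>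
        4 * (B0.filter (fun e => xor (W e) (!o e) = true)).card < B0.card) with hbad2
  have hc1 : bad1.card * B2.card ≤ 4 * 2 ^ n := chebyshev_flip B2 o
  have hc2 : bad2.card * B0.card ≤ 4 * 2 ^ n := chebyshev_flip B0 (fun e => !o e)
  set good : Finset (Fin n → Bool) := univ \ (bad1 ∪ bad2) with hgood
  have h2p : 16 ≤ 2 ^ p := by
    calc 16 = 2 ^ 4 := by norm_num
      _ ≤ 2 ^ p := Nat.pow_le_pow_right (by norm_num) hp
  have hgoodc : 2 ^ n ≤ 2 * good.card := by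
    have hall : good.card + (bad1 ∪ bad2).card = 2 ^ n := by
      have h := Finset.card_sdiff_add_card_eq_card (Finset.subset_univ (bad1 ∪ bad2))
      simpa [hgood] using h
    have hun := Finset.card_union_le bad1 bad2
    have e1 : 16 * bad1.card ≤ 2 ^ n := by
      rw [hB2'.2] at hc1
      have h4 : bad1.card * 2 ^ (p + 2) = 4 * (bad1.card * 2 ^ p) := by
        rw [pow_add]; ring
      rw [h4] at hc1
      have h5 : bad1.card * 2 ^ p ≤ 2 ^ n := by omega
      calc 16 * bad1.card = bad1.card * 16 := by ring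
        _ ≤ bad1.card * 2 ^ p := Nat.mul_le_mul_left _ h2p
        _ ≤ 2 ^ n := h5
    have e2' : 16 * bad2.card ≤ 4 * 2 ^ n := by
      rw [hB0'.2] at hc2
      calc 16 * bad2.card = bad2.card * 16 := by ring
        _ ≤ bad2.card * 2 ^ p := Nat.mul_le_mul_left _ h2p
        _ ≤ 4 * 2 ^ n := hc2
    omega
  -- good `W` give a witness
  have hstep : ∀ W ∈ good, ((2 ^ (p - 2) : ℕ) : ℝ≥0∞) * (T M (hiv ω) (p + 2) : ℝ≥0∞) ≤
      HL M p (flipb W b) (flipω W ω) := by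
    intro W hW
    have hW' : W ∉ bad1 ∧ W ∉ bad2 := by
      simpa [hgood] using hW
    have h1 : ¬ 4 * (B2.filter (fun e => xor (W e) (o e) = true)).card < B2.card := by
      intro h
      exact hW'.1 (by simp only [hbad1, mem_filter, mem_univ, true_and]; exact h)
    have h2 : ¬ 4 * (B0.filter (fun e => xor (W e) (!o e) = true)).card < B0.card := by
      intro h
      exact hW'.2 (by simp only [hbad2, mem_filter, mem_univ, true_and]; exact h)
    refine gd_step M p b ω hi B0 B2 e0 e2 W hB2'.1 hB0'.1 hmin2 hmin0 ?_ hTle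
      (B2.filter (fun e => xor (W e) (o e) = true)) (B0.filter (fun e => xor (W e) (!o e) = true))
      (filter_subset _ _) (filter_subset _ _) ?_ ?_ ?_ ?_ (hF3 W)
    · intro J hJ hJc
      exact hmax0 J (by simp only [h𝓙, mem_filter, mem_univ, true_and]; exact ⟨hJ, hJc⟩)
    · push Not at h1
      rw [hB2'.2] at h1
      have h4 : 2 ^ (p + 2) = 4 * 2 ^ p := by rw [pow_add]; ring
      omega
    · push Not at h2
      rw [hB0'.2] at h2
      have h4 : 2 ^ p = 4 * 2 ^ (p - 2) := by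
        conv_lhs => rw [show p = (p - 2) + 2 by omega, pow_add]
        ring
      omega
    · intro e he
      exact hF1 W e (mem_filter.mp he).2
    · intro e he
      exact hF2 W e (mem_filter.mp he).2
  -- sum
  have hsum : (good.card : ℝ≥0∞) * (((2 ^ (p - 2) : ℕ) : ℝ≥0∞) * (T M (hiv ω) (p + 2) : ℝ≥0∞)) ≤
      ∑ W : Fin n → Bool, HL M p (flipb W b) (flipω W ω) := by
    calc (good.card : ℝ≥0∞) * (((2 ^ (p - 2) : ℕ) : ℝ≥0∞) * (T M (hiv ω) (p + 2) : ℝ≥0∞))
        = ∑ _W ∈ good, (((2 ^ (p - 2) : ℕ) : ℝ≥0∞) * (T M (hiv ω) (p + 2) : ℝ≥0∞)) := by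
          rw [Finset.sum_const, nsmul_eq_mul]
      _ ≤ ∑ W ∈ good, HL M p (flipb W b) (flipω W ω) := Finset.sum_le_sum hstep
      _ ≤ ∑ W : Fin n → Bool, HL M p (flipb W b) (flipω W ω) :=
          Finset.sum_le_sum_of_subset (Finset.subset_univ _)
  refine le_trans ?_ hsum
  have hpow : ((2 ^ (p - 2) : ℕ) : ℝ≥0∞) = 2 * (2 ^ (p - 3) : ℝ≥0∞) := by
    push_cast
    rw [show p - 2 = (p - 3) + 1 by omega, pow_succ]
    ring
  have hg' : (2 ^ n : ℝ≥0∞) ≤ 2 * (good.card : ℝ≥0∞) := by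
    exact_mod_cast hgoodc
  rw [hpow]
  calc (2 ^ n : ℝ≥0∞) * (2 ^ (p - 3) : ℝ≥0∞) * (T M (hiv ω) (p + 2) : ℝ≥0∞)
      ≤ (2 * (good.card : ℝ≥0∞)) * (2 ^ (p - 3) : ℝ≥0∞) * (T M (hiv ω) (p + 2) : ℝ≥0∞) := by
        gcongr
    _ = (good.card : ℝ≥0∞) * (2 * (2 ^ (p - 3) : ℝ≥0∞) * (T M (hiv ω) (p + 2) : ℝ≥0∞)) := by
        ring

end Vale.Agent.Lib.P331.Log
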