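import Vale.Agent.Lib.P331.Log.Defs

open MeasureTheory Finset
open scoped NNReal ENNReal

noncomputable section
namespace Vale.Agent.Lib.P331.Log
open Vale.Agent.Lib.P331
variable {n : ℕ}

/-- a lower bound on an independent set of size `2 ^ j` bounds `T_j` from below -/
lemma lv_le_T (M : Matroid (Fin n)) (x : Fin n → ℝ≥0) (j : ℕ) (J : Finset (Fin n))
    (hJ : M.Indep (J : Set (Fin n))) (hc : J.card = 2 ^ j) (y : ℝ≥0) (hy : ∀ f ∈ J, y ≤ x f) :
    y ≤ T M x j := by
  classical
  have hne : J.Nonempty := by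
    rw [← Finset.card_pos, hc]
    positivity
  have hmem : J ∈ univ.filter (fun I : Finset (Fin n) => M.Indep (I : Set (Fin n)) ∧ I.card = 2 ^ j) :=
    Finset.mem_filter.2 ⟨Finset.mem_univ _, hJ, hc⟩
  have h := Finset.le_sup (f := fun I : Finset (Fin n) => if h : I.Nonempty then I.inf' h x else 0) hmem
  have h2 : y ≤ J.inf' hne x := Finset.le_inf' hne _ hy
  have h3 : (if h : J.Nonempty then J.inf' h x else 0) = J.inf' hne x := dif_pos hne
  unfold T
  calc y ≤ J.inf' hne x := h2
    _ = (if h : J.Nonempty then J.inf' h x else 0) := h3.symm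
    _ ≤ _ := h

/-- the top `k` elements of a finite set -/
lemma lv_top (x : Fin n → ℝ≥0) (I : Finset (Fin n)) (k : ℕ) (hk : k ≤ I.card) :
    ∃ B : Finset (Fin n), B ⊆ I ∧ B.card = k ∧ ∀ a ∈ B, ∀ b ∈ I \ B, x b ≤ x a := by
  classical
  induction k with
  | zero => exact ⟨∅, by simp, by simp, by simp⟩
  | succ k ih =>
    obtain ⟨B, hB, hc, hord⟩ := ih (by omega)
    have hne : (I \ B).Nonempty := by
      rw [← Finset.card_pos, Finset.card_sdiff_of_subset hB]
      omega
    obtain ⟨e, he, hmax⟩ := Finset.exists_max_image (I \ B) x hne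
    have heB : e ∉ B := (Finset.mem_sdiff.1 he).2
    refine ⟨insert e B, ?_, ?_, ?_⟩
    · intro a ha
      rcases Finset.mem_insert.1 ha with rfl | h
      · exact (Finset.mem_sdiff.1 he).1
      · exact hB h
    · rw [Finset.card_insert_of_notMem heB, hc]
    · intro a ha b hb
      have hb1 := Finset.mem_sdiff.1 hb
      have hb2 : b ∈ I \ B := Finset.mem_sdiff.2 ⟨hb1.1, fun h => hb1.2 (Finset.mem_insert_of_mem h)⟩
      rcases Finset.mem_insert.1 ha with rfl | h
      · exact hmax b hb2
      · exact hord a h b hb2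

/-- dyadic peeling -/
lemma lv_sum (M : Matroid (Fin n)) (x : Fin n → ℝ≥0) (L : ℕ) :
    ∀ I : Finset (Fin n), M.Indep (I : Set (Fin n)) → I.card < 2 ^ L →
      ∑ e ∈ I, (x e : ℝ≥0∞) ≤ ∑ j ∈ range L, (2 ^ j : ℝ≥0∞) * (T M x j : ℝ≥0∞) := by
  classical
  induction L with
  | zero =>
    intro I _ hc
    have : I = ∅ := by
      rw [← Finset.card_eq_zero]
      simpa using hc
    simp [this]
  | succ L ih =>
    intro I hI hc
    rw [Finset.sum_range_succ]
    by_cases hsmall : I.card < 2 ^ L
    · exact (ih I hI hsmall).trans le_self_add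
    · have hL : 1 ≤ 2 ^ L := Nat.one_le_two_pow
      have hk : 2 ^ L - 1 ≤ I.card := by omega
      obtain ⟨B, hB, hcB, hord⟩ := lv_top x I (2 ^ L - 1) hk
      have hBi : M.Indep (B : Set (Fin n)) := hI.subset (by exact_mod_cast hB)
      have hBc : B.card < 2 ^ L := by omega
      have hne : (I \ B).Nonempty := by
        rw [← Finset.card_pos, Finset.card_sdiff_of_subset hB]
        omega
      obtain ⟨e1, he1, hmax⟩ := Finset.exists_max_image (I \ B) x hne
      have he1I := (Finset.mem_sdiff.1 he1).1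
      have he1B := (Finset.mem_sdiff.1 he1).2
      have hSsub : insert e1 B ⊆ I := by
        intro a ha
        rcases Finset.mem_insert.1 ha with rfl | h
        · exact he1I
        · exact hB h
      have hSi : M.Indep ((insert e1 B : Finset (Fin n)) : Set (Fin n)) :=
        hI.subset (by exact_mod_cast hSsub)
      have hSc : (insert e1 B).card = 2 ^ L := by
        rw [Finset.card_insert_of_notMem he1B, hcB]
        omega
      have hle : ∀ e ∈ I \ B, x e ≤ T M x L := by
        intro e he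
        apply lv_le_T M x L _ hSi hSc
        intro f hf
        rcases Finset.mem_insert.1 hf with rfl | h
        · exact hmax e he
        · exact hord f h e he
      have hRc : (I \ B).card ≤ 2 ^ L := by
        rw [Finset.card_sdiff_of_subset hB, hcB]
        have : 2 ^ (L + 1) = 2 * 2 ^ L := by ring
        omega
      rw [← Finset.sum_sdiff hB, add_comm]
      refine add_le_add (ih B hBi hBc) ?_
      calc ∑ e ∈ I \ B, (x e : ℝ≥0∞) ≤ ∑ _e ∈ I \ B, (T M x L : ℝ≥0∞) :=
            Finset.sum_le_sum (fun e he => by exact_mod_cast hle e he)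
        _ = ((I \ B).card : ℝ≥0∞) * (T M x L : ℝ≥0∞) := by simp
        _ ≤ (2 ^ L : ℝ≥0∞) * (T M x L : ℝ≥0∞) := by
            gcongr
            exact_mod_cast hRc

/-- Sum over an independent set of size at most `r` is bounded by dyadic max-min levels. -/
theorem sum_le_levels (M : Matroid (Fin n)) (r : ℕ) (x : Fin n → ℝ≥0) (I : Finset (Fin n))
    (hI : M.Indep (I : Set (Fin n))) (hr : I.card ≤ r) :
    ∑ e ∈ I, (x e : ℝ≥0∞) ≤ ∑ j ∈ range (Nat.log 2 r + 1), (2 ^ j : ℝ≥0∞) * (T M x j : ℝ≥0∞) := by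
  apply lv_sum M x _ I hI
  exact lt_of_le_of_lt hr (Nat.lt_pow_succ_log_self (by norm_num) r)

/-- Levels are monotone: `T_j ≤ T_0`. -/
theorem T_le_T0 (M : Matroid (Fin n)) (x : Fin n → ℝ≥0) (j : ℕ) : T M x j ≤ T M x 0 := by
  classical
  unfold T
  apply Finset.sup_le
  intro I hI
  by_cases hne : I.Nonempty
  · rw [dif_pos hne]
    obtain ⟨f, hf⟩ := hne
    have hIi := (Finset.mem_filter.1 hI).2.1
    have hsub : (({f} : Finset (Fin n)) : Set (Fin n)) ⊆ (I : Set (Fin n)) := by
      simpa using hf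
    have h1 : x f ≤ T M x 0 := by
      apply lv_le_T M x 0 {f} (hIi.subset hsub) (by simp)
      intro g hg
      rw [Finset.mem_singleton.1 hg]
    exact (Finset.inf'_le x hf).trans h1
  · rw [dif_neg hne]
    exact zero_le

/-- For a non-loop `e`... `T_0` attained: there is a non-loop `e0` with `x e0 = T_0`, when `T_0 ≠ 0`. -/
theorem exists_T0 (M : Matroid (Fin n)) (x : Fin n → ℝ≥0) (h : T M x 0 ≠ 0) :
    ∃ e0, M.Indep ({e0} : Set (Fin n)) ∧ x e0 = T M x 0 := by
  classical
  have hne : (univ.filter (fun I : Finset (Fin n) => M.Indep (I : Set (Fin n)) ∧ I.card = 2 ^ 0)).Nonempty := by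
    by_contra hemp
    apply h
    unfold T
    rw [Finset.not_nonempty_iff_eq_empty.1 hemp]
    simp
  obtain ⟨I, hI, hsup⟩ := Finset.exists_mem_eq_sup _ hne
    (fun I : Finset (Fin n) => if h : I.Nonempty then I.inf' h x else 0)
  obtain ⟨-, hIi, hc⟩ := Finset.mem_filter.1 hI
  obtain ⟨e0, rfl⟩ := Finset.card_eq_one.1 (by simpa using hc)
  refine ⟨e0, by simpa using hIi, ?_⟩
  unfold T
  rw [hsup]
  simp

end Vale.Agent.Lib.P331.Log
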