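import Vale.Agent.Lib.P331.Log.Defs
import Vale.Agent.Lib.P331.Meas

open MeasureTheory Finset
open scoped NNReal ENNReal

noncomputable section
namespace Vale.Agent.Lib.P331.Log
open Vale.Agent.Lib.P331
variable {n : ℕ}

lemma lm_ms_beats (M : Matroid (Fin n)) (p : ℕ) (b : Fin n → Bool) (f : Fin n) :
    MeasurableSet {ω : Fin n → ℝ≥0 × ℝ≥0 | Beats M p (fun i => (ω i).1) b f (ω f).2} := by
  have hset : {ω : Fin n → ℝ≥0 × ℝ≥0 | Beats M p (fun i => (ω i).1) b f (ω f).2} =
      (⋃ (I : Finset (Fin n)) (_ : M.Indep (I : Set (Fin n)) ∧ I.card = 2 ^ p),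
        ⋂ g ∈ I, {ω : Fin n → ℝ≥0 × ℝ≥0 |
          recV (ω f).2 b f < recS (fun i => (ω i).1) b g})ᶜ := by
    ext ω
    simp only [Beats, Set.mem_ofPred_eq, Set.mem_compl_iff, Set.mem_iUnion, Set.mem_iInter,
      exists_prop, and_assoc]
  rw [hset]
  refine MeasurableSet.compl (MeasurableSet.iUnion fun I => MeasurableSet.iUnion fun _ => ?_)
  exact Finset.measurableSet_biInter I fun g _ => ms_recV_lt_recS b f g

lemma lm_ms_witness (M : Matroid (Fin n)) (p N : ℕ) (b : Fin n → Bool) (e : Fin n)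
    (I : Finset (Fin n)) :
    MeasurableSet {ω : Fin n → ℝ≥0 × ℝ≥0 | Witness M p N b ω e I} := by
  have hset : {ω : Fin n → ℝ≥0 × ℝ≥0 | Witness M p N b ω e I} =
      {_ω | M.Indep (I : Set (Fin n)) ∧ I.card = N} ∩
      ((⋂ f ∈ I, {ω : Fin n → ℝ≥0 × ℝ≥0 | Beats M p (fun i => (ω i).1) b f (ω f).2}) ∩
       (⋂ f : Fin n, ({ω : Fin n → ℝ≥0 × ℝ≥0 | Beats M p (fun i => (ω i).1) b f (ω f).2}ᶜ ∪
          {ω : Fin n → ℝ≥0 × ℝ≥0 | (ω e).1 ≤ (ω f).2}))) := by
    ext ω
    simp only [Witness, Set.mem_ofPred_eq, Set.mem_inter_iff, Set.mem_iInter, Set.mem_union,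
      Set.mem_compl_iff]
    constructor
    · rintro ⟨h1, h2, h3, h4⟩
      refine ⟨⟨h1, h2⟩, h3, fun f => ?_⟩
      by_cases hb : Beats M p (fun i => (ω i).1) b f (ω f).2
      · exact Or.inr (h4 f hb)
      · exact Or.inl hb
    · rintro ⟨⟨h1, h2⟩, h3, h4⟩
      refine ⟨h1, h2, h3, fun f hb => ?_⟩
      rcases h4 f with h | h
      · exact absurd hb h
      · exact h
  rw [hset]
  refine (MeasurableSet.const _).inter (MeasurableSet.inter ?_ ?_)
  · exact Finset.measurableSet_biInter I fun f _ => lm_ms_beats M p b f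
  · refine MeasurableSet.iInter fun f => (lm_ms_beats M p b f).compl.union ?_
    exact measurableSet_le (measurable_fst.comp (measurable_pi_apply e))
      (measurable_snd.comp (measurable_pi_apply f))

theorem measurable_HL (M : Matroid (Fin n)) (p : ℕ) (b : Fin n → Bool) :
    Measurable (HL M p b) := by
  classical
  unfold HL
  refine Measurable.iSup fun e => Measurable.iSup fun I => ?_
  refine Measurable.ite (lm_ms_witness M p _ b e I) ?_ measurable_const
  exact measurable_const.mul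
    (measurable_coe_nnreal_ennreal.comp (measurable_fst.comp (measurable_pi_apply e)))

end Vale.Agent.Lib.P331.Log
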