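import Vale.Agent.Lib.P331.Log.Defs
import Vale.Agent.Lib.P331.Run

open MeasureTheory Finset
open scoped NNReal ENNReal

noncomputable section
namespace Vale.Agent.Lib.P331.Log
open Vale.Agent.Lib.P331
variable {n : ℕ}

theorem lr_foldl_inv {α β : Type*} (step : β → α → β) (P : β → Prop)
    (hstep : ∀ acc x, P acc → P (step acc x)) :
    ∀ (l : List α) (acc : β), P acc → P (l.foldl step acc) := by
  intro l
  induction l with
  | nil => intro acc h; simpa using h
  | cons x xs ih =>
    intro acc h
    simp only [List.foldl_cons]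
    exact ih _ (hstep acc x h)

theorem lr_foldl_mono {α : Type*} (step : Finset α → α → Finset α)
    (hmono : ∀ acc x, acc ⊆ step acc x) :
    ∀ (l : List α) (acc : Finset α), acc ⊆ l.foldl step acc := by
  intro l
  induction l with
  | nil => intro acc; simp
  | cons x xs ih =>
    intro acc
    simp only [List.foldl_cons]
    exact (hmono acc x).trans (ih _)

theorem lr_mem_of_indep (M : Matroid (Fin n)) (step : Finset (Fin n) → Fin n → Finset (Fin n))
    (f : Fin n) (hmono : ∀ acc x, acc ⊆ step acc x)
    (hhit : ∀ acc : Finset (Fin n), M.Indep (insert f (acc : Set (Fin n))) → f ∈ step acc f) :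
    ∀ (l : List (Fin n)) (acc : Finset (Fin n)), (f ∈ acc ∨ f ∈ l) →
      M.Indep (insert f ((l.foldl step acc : Finset (Fin n)) : Set (Fin n))) →
      f ∈ l.foldl step acc := by
  intro l
  induction l with
  | nil =>
    intro acc h _
    simpa using h
  | cons x xs ih =>
    intro acc h hind
    simp only [List.foldl_cons] at hind ⊢
    apply ih _ ?_ hind
    rcases h with h | h
    · exact Or.inl (hmono acc x h)
    · rcases List.mem_cons.1 h with rfl | h
      · left
        apply hhit
        refine hind.subset (Set.insert_subset_insert ?_)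
        intro y hy
        have hy' : y ∈ acc := Finset.mem_coe.1 hy
        exact Finset.mem_coe.2 (lr_foldl_mono step hmono xs _ (hmono acc _ hy'))
      · exact Or.inr h

/-- every run yields an independent set -/
theorem ruleL_run_indep (M : Matroid (Fin n)) (L : ℕ) (s : Fin n → ℝ≥0) (r : SeedL L n)
    (v : Fin n → ℝ≥0) (order : List (Fin n)) :
    M.Indep (((ruleL M L).run s r v order : Finset (Fin n)) : Set (Fin n)) := by
  classical
  unfold OnlineRule.run
  refine lr_foldl_inv _ (fun acc : Finset (Fin n) => M.Indep (acc : Set (Fin n))) ?_ order ∅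
    (by simpa using M.empty_indep)
  intro acc x hacc
  split_ifs with h
  · have h' : Beats M r.1 s r.2 x (v x) ∧ M.Indep (insert x (acc : Set (Fin n))) := h
    rw [Finset.coe_insert]
    exact h'.2
  · exact hacc

/-- the accepted set is a maximal independent subset of the beating elements: if all elements
arrive, then any independent set of beating elements is at most as large; accepted elements beat -/
theorem run_maximal (M : Matroid (Fin n)) (L : ℕ) (s : Fin n → ℝ≥0) (r : SeedL L n)
    (v : Fin n → ℝ≥0) (σ : Equiv.Perm (Fin n)) :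
    (∀ f ∈ (ruleL M L).run s r v (List.ofFn σ), Beats M r.1 s r.2 f (v f)) ∧
    ∀ I : Finset (Fin n), M.Indep (I : Set (Fin n)) → (∀ f ∈ I, Beats M r.1 s r.2 f (v f)) →
      I.card ≤ ((ruleL M L).run s r v (List.ofFn σ)).card := by
  classical
  refine ⟨?_, ?_⟩
  · unfold OnlineRule.run
    refine lr_foldl_inv _ (fun acc : Finset (Fin n) => ∀ f ∈ acc, Beats M r.1 s r.2 f (v f)) ?_ _ ∅
      (by simp)
    intro acc x hacc f hf
    split_ifs at hf with h
    · have h' : Beats M r.1 s r.2 x (v x) ∧ M.Indep (insert x (acc : Set (Fin n))) := h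
      rcases Finset.mem_insert.1 hf with rfl | hf
      · exact h'.1
      · exact hacc f hf
    · exact hacc f hf
  · intro I hI hbeat
    by_contra hlt
    have hlt' := not_le.1 hlt
    have hA := ruleL_run_indep M L s r v (List.ofFn σ)
    obtain ⟨f, hfI, hfA, hins⟩ := hA.augment_finset hI hlt'
    apply hfA
    unfold OnlineRule.run at hins ⊢
    refine lr_mem_of_indep M _ f ?_ ?_ _ ∅ (Or.inr ?_) hins
    · intro acc x
      split_ifs
      · exact Finset.subset_insert _ _
      · exact Finset.Subset.refl _
    · intro acc hacc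
      have hacc' : (ruleL M L).accept s r acc f (v f) := ⟨hbeat f hfI, hacc⟩
      rw [if_pos hacc']
      exact Finset.mem_insert_self _ _
    · rw [List.mem_ofFn]
      exact σ.surjective f

/-- the gain at level `p` dominates `HL` -/
theorem HL_le_gain (M : Matroid (Fin n)) (L : ℕ) (p : Fin (L + 1)) (b : Fin n → Bool)
    (ω : Fin n → ℝ≥0 × ℝ≥0) (σ : Equiv.Perm (Fin n)) :
    HL M p b ω ≤ ∑ e ∈ (ruleL M L).run (fun i => (ω i).1) (p, b) (fun i => (ω i).2)
        (List.ofFn σ), ((ω e).2 : ℝ≥0∞) := by
  classical
  unfold HL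
  refine iSup_le fun e => iSup_le fun I => ?_
  split_ifs with hW
  · obtain ⟨hI, hcard, hbeat, hall⟩ := hW
    obtain ⟨h1, h2⟩ := run_maximal M L (fun i => (ω i).1) (p, b) (fun i => (ω i).2) σ
    have hc := h2 I hI hbeat
    set A := (ruleL M L).run (fun i => (ω i).1) (p, b) (fun i => (ω i).2) (List.ofFn σ) with hA
    have hval : ∀ f ∈ A, ((ω e).1 : ℝ≥0∞) ≤ ((ω f).2 : ℝ≥0∞) := by
      intro f hf
      exact_mod_cast hall f (h1 f hf)
    have hsum := Finset.card_nsmul_le_sum A (fun f => ((ω f).2 : ℝ≥0∞)) ((ω e).1 : ℝ≥0∞) hval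
    refine le_trans ?_ hsum
    rw [nsmul_eq_mul]
    gcongr
    rw [← hcard]
    exact hc
  · exact zero_le

theorem lr_lastPos_A0 (M : Matroid (Fin n)) (e : Fin n) (h : M.Indep ({e} : Set (Fin n))) :
    lastPos (A0 M) (Equiv.refl _) e = 1 := by
  classical
  unfold lastPos A0
  have hf : (univ.filter (fun i : Fin 1 => (if M.Indep ({e} : Set (Fin n)) then (1 : ℚ) else 0) ≠ 0))
      = univ := by
    simp [h]
  simp [h, Finset.univ_unique]

theorem lr_lastPos_A0_zero (M : Matroid (Fin n)) (e : Fin n) (h : ¬ M.Indep ({e} : Set (Fin n))) :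
    lastPos (A0 M) (Equiv.refl _) e = 0 := by
  classical
  unfold lastPos A0
  simp [h]

/-- the gain at level `0` dominates the unique-winner bound of `A0` -/
theorem H0_le_gain (M : Matroid (Fin n)) (L : ℕ) (b : Fin n → Bool)
    (ω : Fin n → ℝ≥0 × ℝ≥0) (σ : Equiv.Perm (Fin n)) :
    H (A0 M) (Equiv.refl _) b ω ≤
      ∑ e ∈ (ruleL M L).run (fun i => (ω i).1) (0, b) (fun i => (ω i).2)
        (List.ofFn σ), ((ω e).2 : ℝ≥0∞) := by
  classical
  unfold H
  rw [← Finset.sum_filter]
  refine Finset.sum_le_sum_of_subset ?_
  intro e he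
  obtain ⟨h0, hwin, huniq⟩ : UniqueWinner (A0 M) (Equiv.refl _) b ω e := (Finset.mem_filter.1 he).2
  have hloop : M.Indep ({e} : Set (Fin n)) := by
    by_contra hn
    exact h0 (lr_lastPos_A0_zero M e hn)
  have hle : lastPos (A0 M) (Equiv.refl _) e = 1 := lr_lastPos_A0 M e hloop
  -- singletons of independent sets are non-loops
  have hsing : ∀ I : Finset (Fin n), M.Indep (I : Set (Fin n)) → I.card = 2 ^ 0 →
      ∃ f, I = {f} ∧ lastPos (A0 M) (Equiv.refl _) f = lastPos (A0 M) (Equiv.refl _) e := by
    intro I hI hc
    obtain ⟨f, rfl⟩ := Finset.card_eq_one.1 (by simpa using hc)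
    refine ⟨f, rfl, ?_⟩
    rw [hle]
    exact lr_lastPos_A0 M f (by simpa using hI)
  have hbeat : Beats M ((0 : Fin (L + 1)) : ℕ) (fun i => (ω i).1) b e (ω e).2 := by
    rintro ⟨I, hI, hc, hlt⟩
    rw [Fin.val_zero] at hc
    obtain ⟨f, rfl, hlab⟩ := hsing I hI hc
    have h1 := hlt f (Finset.mem_singleton_self f)
    exact lt_asymm h1 (hwin f hlab)
  have hnot : ∀ g, g ≠ e → M.Indep ({g} : Set (Fin n)) →
      ¬ Beats M ((0 : Fin (L + 1)) : ℕ) (fun i => (ω i).1) b g (ω g).2 := by
    intro g hge hg hb
    have hlab : lastPos (A0 M) (Equiv.refl _) g = lastPos (A0 M) (Equiv.refl _) e := by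
      rw [hle, lr_lastPos_A0 M g hg]
    obtain ⟨f, hf, hlt⟩ := huniq g hlab hge
    have hfl : M.Indep ({f} : Set (Fin n)) := by
      by_contra hn
      rw [lr_lastPos_A0_zero M f hn, hle] at hf
      exact absurd hf (by norm_num)
    apply hb
    refine ⟨{f}, by simpa using hfl, ?_, ?_⟩
    · rw [Fin.val_zero]; simp
    · intro f' hf'
      rw [Finset.mem_singleton.1 hf']
      exact hlt
  unfold OnlineRule.run
  have hrun : ∀ (l : List (Fin n)) (acc : Finset (Fin n)), (∀ f ∈ acc, f = e) → (e ∈ acc ∨ e ∈ l) →
      e ∈ l.foldl (fun acc e_1 => if (ruleL M L).accept (fun i => (ω i).1) (0, b) acc e_1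
          ((fun i => (ω i).2) e_1) then insert e_1 acc else acc) acc := by
    intro l
    induction l with
    | nil =>
      intro acc _ h
      simpa using h
    | cons x xs ih =>
      intro acc hacc h
      simp only [List.foldl_cons]
      apply ih
      · intro f hf
        split_ifs at hf with hx
        · have hx' : Beats M ((0 : Fin (L + 1)) : ℕ) (fun i => (ω i).1) b x (ω x).2 ∧
              M.Indep (insert x (acc : Set (Fin n))) := hx
          rcases Finset.mem_insert.1 hf with rfl | hf
          · by_contra hne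
            exact hnot f hne (hx'.2.subset (by simp)) hx'.1
          · exact hacc f hf
        · exact hacc f hf
      · rcases h with h | h
        · left
          split_ifs
          · exact Finset.mem_insert_of_mem h
          · exact h
        · rcases List.mem_cons.1 h with rfl | h
          · left
            by_cases hex : e ∈ acc
            · split_ifs
              · exact Finset.mem_insert_self _ _
              · exact hex
            · have hacc0 : acc = ∅ := by
                apply Finset.eq_empty_of_forall_notMem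
                intro f hf
                exact hex (hacc f hf ▸ hf)
              subst hacc0
              rw [if_pos]
              · exact Finset.mem_insert_self _ _
              · refine ⟨hbeat, ?_⟩
                simpa using hloop
          · exact Or.inr h
  exact hrun _ ∅ (by simp) (Or.inr (by rw [List.mem_ofFn]; exact σ.surjective e))

end Vale.Agent.Lib.P331.Log
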