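import Vale.Agent.Lib.P331.Final
import Vale.Agent.Lib.P331.Log.Run
import Vale.Agent.Lib.P331.Log.Good
import Vale.Agent.Lib.P331.Log.Levels
import Vale.Agent.Lib.P331.Log.Meas

open MeasureTheory Finset
open scoped NNReal ENNReal

noncomputable section
namespace Vale.Agent.Lib.P331.Log
open Vale.Agent.Lib.P331
variable {n : ℕ}

/-- the measurable lower bound at level `p` -/
def HH (M : Matroid (Fin n)) (p : ℕ) (b : Fin n → Bool) (ω : Fin n → ℝ≥0 × ℝ≥0) : ℝ≥0∞ :=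
  if p = 0 then H (A0 M) (Equiv.refl _) b ω else HL M p b ω

theorem measurable_HH (M : Matroid (Fin n)) (p : ℕ) (b : Fin n → Bool) :
    Measurable (HH M p b) := by
  by_cases hp : p = 0
  · have : HH M p b = H (A0 M) (Equiv.refl _) b := by funext ω; simp [HH, hp]
    rw [this]; exact measurable_H _ _ _
  · have : HH M p b = HL M p b := by funext ω; simp [HH, hp]
    rw [this]; exact measurable_HL _ _ _

theorem HH_le_gain (M : Matroid (Fin n)) (L : ℕ) (p : Fin (L + 1)) (b : Fin n → Bool)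
    (ω : Fin n → ℝ≥0 × ℝ≥0) (σ : Equiv.Perm (Fin n)) :
    HH M p b ω ≤ ∑ e ∈ (ruleL M L).run (fun i => (ω i).1) (p, b) (fun i => (ω i).2)
        (List.ofFn σ), ((ω e).2 : ℝ≥0∞) := by
  by_cases hp : (p : ℕ) = 0
  · have hp' : p = 0 := Fin.ext hp
    simp only [HH, hp, if_true]
    rw [hp']
    exact H0_le_gain M L b ω σ
  · simp only [HH, hp, if_false]
    exact HL_le_gain M L p b ω σ

theorem flipb_flipb (W W0 b : Fin n → Bool) : flipb W (flipb W0 b) = flipb (flipb W W0) b := by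
  funext e; simp only [flipb]; cases W e <;> cases W0 e <;> cases b e <;> rfl

theorem flipω_flipω (W W0 : Fin n → Bool) (ω : Fin n → ℝ≥0 × ℝ≥0) :
    flipω W (flipω W0 ω) = flipω (flipb W W0) ω := by
  funext e
  simp only [flipω, flipb]
  by_cases h1 : W e = true <;> by_cases h2 : W0 e = true <;> simp [h1, h2]

theorem lastPos_A0 (M : Matroid (Fin n)) (e0 : Fin n) (h : M.Indep ({e0} : Set (Fin n))) :
    lastPos (A0 M) (Equiv.refl _) e0 ≠ 0 := by
  classical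
  have hne : A0 M 0 e0 ≠ 0 := by
    simp [A0, h]
  intro h0
  unfold lastPos at h0
  have hle : ((Equiv.refl (Fin 1)) 0 : ℕ) + 1 ≤
      (univ.filter (fun i => A0 M i e0 ≠ 0)).sup (fun i => (((Equiv.refl (Fin 1)) i : Fin 1) : ℕ) + 1) :=
    Finset.le_sup (f := fun i => (((Equiv.refl (Fin 1)) i : Fin 1) : ℕ) + 1)
      (by simp only [mem_filter, mem_univ, true_and]; exact hne)
  have : (univ.filter (fun i => A0 M i e0 ≠ 0)).sup (fun i => (((Equiv.refl (Fin 1)) i : Fin 1) : ℕ) + 1) = 0 := by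
    convert h0
  omega

/-- top level -/
theorem top_flip (M : Matroid (Fin n)) (b : Fin n → Bool) (ω : Fin n → ℝ≥0 × ℝ≥0) :
    (2 ^ n : ℝ≥0∞) * (T M (hiv ω) 0 : ℝ≥0∞) ≤
      4 * ∑ W : Fin n → Bool, H (A0 M) (Equiv.refl _) (flipb W b) (flipω W ω) := by
  classical
  by_cases hT : T M (hiv ω) 0 = 0
  · simp [hT]
  obtain ⟨e0, he0, hv⟩ := exists_T0 M (hiv ω) hT
  -- orient so that the value at `e0` is the larger one
  set W0 : Fin n → Bool := fun e => decide (e = e0 ∧ (ω e).2 < (ω e).1) with hW0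
  have hval : ((flipω W0 ω e0).2 : ℝ≥0) = T M (hiv ω) 0 := by
    rw [← hv]
    simp only [flipω, hiv, hW0]
    by_cases h : (ω e0).2 < (ω e0).1
    · simp [h, h.le]
    · simp [h, not_lt.mp h]
  have key := four_mul_sum_flip_H_ge (A0 M) (Equiv.refl _) (flipb W0 b) (flipω W0 ω) {e0}
    (by intro e he; rw [mem_singleton.mp he]; exact lastPos_A0 M e0 he0)
    (by intro e he f hf _; rw [mem_singleton.mp he, mem_singleton.mp hf])
  simp only [sum_singleton] at key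
  rw [hval] at key
  refine key.trans (le_of_eq ?_)
  congr 1
  refine Fintype.sum_equiv (flipbEquiv W0) _ _ (fun W => ?_)
  simp only [flipbEquiv, Equiv.coe_fn_mk]
  rw [flipb_flipb, flipω_flipω]

/-- Pointwise inequality -/
theorem pointwiseL (M : Matroid (Fin n)) (r : ℕ)
    (hr : ∀ I : Finset (Fin n), M.Indep (I : Set (Fin n)) → I.card ≤ r)
    (b : Fin n → Bool) (ω : Fin n → ℝ≥0 × ℝ≥0) :
    (2 ^ n : ℝ≥0∞) * optM M (fun e => (ω e).2) ≤
      252 * ∑ p ∈ range (Nat.log 2 r + 1), ∑ W : Fin n → Bool,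
        HH M p (flipb W b) (flipω W ω) := by
  classical
  set L := Nat.log 2 r with hL
  set G : ℕ → ℝ≥0∞ := fun p => ∑ W : Fin n → Bool, HH M p (flipb W b) (flipω W ω) with hG
  set TT : ℕ → ℝ≥0∞ := fun j => (T M (hiv ω) j : ℝ≥0∞) with hTT
  have ha : (2 ^ n : ℝ≥0∞) * TT 0 ≤ 4 * G 0 := by
    simpa [hG, hTT, HH] using top_flip M b ω
  have hb' : ∀ p, 4 ≤ p → (2 ^ n : ℝ≥0∞) * (2 ^ (p - 3) : ℝ≥0∞) * TT (p + 2) ≤ G p := by
    intro p hp
    have hp0 : p ≠ 0 := by omega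
    simpa [hG, hTT, HH, hp0] using flip_good M p hp b ω
  have hc : ∀ j, TT j ≤ TT 0 := fun j => by
    simp only [hTT]; exact_mod_cast T_le_T0 M (hiv ω) j
  -- termwise bounds
  have hsmall : ∀ j, (2 ^ n : ℝ≥0∞) * ((2 ^ j : ℝ≥0∞) * TT j) ≤ (2 ^ j : ℝ≥0∞) * (4 * G 0) := by
    intro j
    calc (2 ^ n : ℝ≥0∞) * ((2 ^ j : ℝ≥0∞) * TT j)
        = (2 ^ j : ℝ≥0∞) * ((2 ^ n : ℝ≥0∞) * TT j) := by ring
      _ ≤ (2 ^ j : ℝ≥0∞) * ((2 ^ n : ℝ≥0∞) * TT 0) := by gcongr; exact hc j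
      _ ≤ (2 ^ j : ℝ≥0∞) * (4 * G 0) := by gcongr
  have hbig : ∀ j, 6 ≤ j → (2 ^ n : ℝ≥0∞) * ((2 ^ j : ℝ≥0∞) * TT j) ≤ 32 * G (j - 2) := by
    intro j hj
    have h := hb' (j - 2) (by omega)
    have e1 : j - 2 + 2 = j := by omega
    rw [e1] at h
    have e2 : (2 ^ j : ℝ≥0∞) = 32 * 2 ^ (j - 2 - 3) := by
      have : j = 5 + (j - 2 - 3) := by omega
      conv_lhs => rw [this, pow_add]
      norm_num
    rw [e2]
    calc (2 ^ n : ℝ≥0∞) * (32 * 2 ^ (j - 2 - 3) * TT j)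
        = 32 * ((2 ^ n : ℝ≥0∞) * (2 ^ (j - 2 - 3) : ℝ≥0∞) * TT j) := by ring
      _ ≤ 32 * G (j - 2) := by gcongr
  -- the level sum
  have hsum : (2 ^ n : ℝ≥0∞) * ∑ j ∈ range (L + 1), (2 ^ j : ℝ≥0∞) * TT j ≤
      252 * ∑ p ∈ range (L + 1), G p := by
    rw [Finset.mul_sum]
    rw [← Finset.sum_filter_add_sum_filter_not (range (L + 1)) (fun j => j < 6)]
    have h1 : ∑ j ∈ (range (L + 1)).filter (fun j => j < 6),
        (2 ^ n : ℝ≥0∞) * ((2 ^ j : ℝ≥0∞) * TT j) ≤ 252 * G 0 := by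
      calc ∑ j ∈ (range (L + 1)).filter (fun j => j < 6),
            (2 ^ n : ℝ≥0∞) * ((2 ^ j : ℝ≥0∞) * TT j)
          ≤ ∑ j ∈ (range (L + 1)).filter (fun j => j < 6), (2 ^ j : ℝ≥0∞) * (4 * G 0) :=
            Finset.sum_le_sum fun j _ => hsmall j
        _ ≤ ∑ j ∈ range 6, (2 ^ j : ℝ≥0∞) * (4 * G 0) := by
            refine Finset.sum_le_sum_of_subset ?_
            intro j hj
            simp only [mem_filter] at hj
            exact mem_range.mpr hj.2
        _ = 252 * G 0 := by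
            simp only [Finset.sum_range_succ, Finset.sum_range_zero]
            ring
    have h2 : ∑ j ∈ (range (L + 1)).filter (fun j => ¬ j < 6),
        (2 ^ n : ℝ≥0∞) * ((2 ^ j : ℝ≥0∞) * TT j) ≤
        32 * ∑ p ∈ (range (L + 1)).erase 0, G p := by
      calc ∑ j ∈ (range (L + 1)).filter (fun j => ¬ j < 6),
            (2 ^ n : ℝ≥0∞) * ((2 ^ j : ℝ≥0∞) * TT j)
          ≤ ∑ j ∈ (range (L + 1)).filter (fun j => ¬ j < 6), 32 * G (j - 2) :=
            Finset.sum_le_sum fun j hj => hbig j (by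
              simp only [mem_filter] at hj; omega)
        _ = 32 * ∑ j ∈ (range (L + 1)).filter (fun j => ¬ j < 6), G (j - 2) := by
            rw [Finset.mul_sum]
        _ ≤ 32 * ∑ p ∈ (range (L + 1)).erase 0, G p := by
            gcongr
            rw [← Finset.sum_image (f := G) (g := fun j => j - 2)
              (s := (range (L + 1)).filter (fun j => ¬ j < 6))]
            · refine Finset.sum_le_sum_of_subset ?_
              intro p hp
              simp only [mem_image, mem_filter, mem_range] at hp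
              obtain ⟨j, hj, rfl⟩ := hp
              simp only [mem_erase, mem_range]
              omega
            · intro x hx y hy hxy
              simp only [coe_filter, Set.mem_ofPred_eq, mem_range] at hx hy
              simp only at hxy
              omega
    have h3 : ∑ p ∈ range (L + 1), G p = G 0 + ∑ p ∈ (range (L + 1)).erase 0, G p :=
      (Finset.add_sum_erase _ _ (mem_range.mpr (Nat.succ_pos L))).symm
    rw [h3]
    calc _ ≤ 252 * G 0 + 32 * ∑ p ∈ (range (L + 1)).erase 0, G p := add_le_add h1 h2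
      _ ≤ 252 * G 0 + 252 * ∑ p ∈ (range (L + 1)).erase 0, G p := by
          gcongr; norm_num
      _ = 252 * (G 0 + ∑ p ∈ (range (L + 1)).erase 0, G p) := by ring
  unfold optM
  simp only [ENNReal.mul_iSup]
  refine iSup_le fun I => iSup_le fun hI => ?_
  have h1 : ∑ e ∈ I, ((ω e).2 : ℝ≥0∞) ≤ ∑ e ∈ I, (hiv ω e : ℝ≥0∞) := by
    refine Finset.sum_le_sum fun e _ => ?_
    simp only [hiv]
    exact_mod_cast le_max_right _ _
  have h2 := sum_le_levels M r (hiv ω) I hI (hr I hI)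
  calc (2 ^ n : ℝ≥0∞) * ∑ e ∈ I, ((ω e).2 : ℝ≥0∞)
      ≤ (2 ^ n : ℝ≥0∞) * ∑ j ∈ range (L + 1), (2 ^ j : ℝ≥0∞) * TT j := by
        gcongr
        exact h1.trans h2
    _ ≤ _ := hsum

open Classical in
theorem main_ineqL' (M : Matroid (Fin n)) (r L : ℕ) (hL : L = Nat.log 2 r)
    (hr : ∀ I : Finset (Fin n), M.Indep (I : Set (Fin n)) → I.card ≤ r)
    (D : Fin n → Measure ℝ≥0) (hD : ∀ e, IsProbabilityMeasure (D e))
    (adv : (Fin n → ℝ≥0 × ℝ≥0) → SeedL L n → Equiv.Perm (Fin n)) :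
    (1 / (252 * (L + 1)) : ℝ≥0∞) * ∫⁻ ω, optM M (fun e => (ω e).2) ∂(jointLaw D) ≤
      ∫⁻ ω, (∑ s : SeedL L n, ∑ e ∈ (ruleL M L).run (fun i => (ω i).1) s
          (fun i => (ω i).2) (List.ofFn (adv ω s)), ((ω e).2 : ℝ≥0∞)) /
          (Fintype.card (SeedL L n) : ℝ≥0∞)
        ∂(jointLaw D) := by
  set μ := jointLaw D with hμ
  set b : Fin n → Bool := fun _ => false with hb
  set P : ℝ≥0∞ := (2 ^ n : ℝ≥0∞) with hP
  set Q : ℝ≥0∞ := ((L : ℝ≥0∞) + 1) with hQ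
  have hcard : (Fintype.card (SeedL L n) : ℝ≥0∞) = Q * P := by
    simp [SeedL, Fintype.card_prod, hQ, hP]
  have hP0 : P ≠ 0 := by simp [hP]
  have hPt : P ≠ ∞ := by rw [hP]; finiteness
  have hQ0 : Q ≠ 0 := by simp [hQ]
  have hQt : Q ≠ ∞ := by rw [hQ]; finiteness
  have hmeas : ∀ p b', Measurable (HH M p b') := fun p b' => measurable_HH M p b'
  have hflip : ∀ W, MeasurePreserving (flipω W) μ μ := fun W => flip_measurePreserving D hD W
  have step1 : P * ∫⁻ ω, optM M (fun e => (ω e).2) ∂μ ≤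
      252 * ∑ p ∈ range (L + 1), ∑ b' : Fin n → Bool, ∫⁻ ω, HH M p b' ω ∂μ := by
    calc P * ∫⁻ ω, optM M (fun e => (ω e).2) ∂μ
        = ∫⁻ ω, P * optM M (fun e => (ω e).2) ∂μ := (lintegral_const_mul' P _ hPt).symm
      _ ≤ ∫⁻ ω, 252 * ∑ p ∈ range (L + 1), ∑ W : Fin n → Bool,
            HH M p (flipb W b) (flipω W ω) ∂μ := lintegral_mono fun ω => by
              have := pointwiseL M r hr b ω
              rw [← hL] at this
              exact this
      _ = 252 * ∑ p ∈ range (L + 1), ∑ W : Fin n → Bool,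
            ∫⁻ ω, HH M p (flipb W b) (flipω W ω) ∂μ := by
          rw [lintegral_const_mul' _ _ (by finiteness)]
          congr 1
          have hm1 : ∀ p, ∀ W : Fin n → Bool,
              Measurable (fun ω => HH M p (flipb W b) (flipω W ω)) :=
            fun p W => (hmeas p _).comp (hflip W).measurable
          rw [lintegral_finsetSum _ (fun p _ => Finset.measurable_sum _ fun W _ => hm1 p W)]
          refine Finset.sum_congr rfl fun p _ => ?_
          rw [lintegral_finsetSum _ (fun W _ => hm1 p W)]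
      _ = 252 * ∑ p ∈ range (L + 1), ∑ W : Fin n → Bool,
            ∫⁻ ω, HH M p (flipb W b) ω ∂μ := by
          congr 1
          refine Finset.sum_congr rfl fun p _ => Finset.sum_congr rfl fun W _ => ?_
          exact (hflip W).lintegral_comp (hmeas p _)
      _ = 252 * ∑ p ∈ range (L + 1), ∑ b' : Fin n → Bool, ∫⁻ ω, HH M p b' ω ∂μ := by
          congr 1
          refine Finset.sum_congr rfl fun p _ => ?_
          exact Fintype.sum_equiv (flipbEquiv b) _ _ (fun W => rfl)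
  have step2 : ∑ p ∈ range (L + 1), ∑ b' : Fin n → Bool, ∫⁻ ω, HH M p b' ω ∂μ ≤
      ∫⁻ ω, ∑ s : SeedL L n, ∑ e ∈ (ruleL M L).run (fun i => (ω i).1) s (fun i => (ω i).2)
          (List.ofFn (adv ω s)), ((ω e).2 : ℝ≥0∞) ∂μ := by
    have : ∑ p ∈ range (L + 1), ∑ b' : Fin n → Bool, ∫⁻ ω, HH M p b' ω ∂μ =
        ∫⁻ ω, ∑ s : SeedL L n, HH M s.1 s.2 ω ∂μ := by
      rw [lintegral_finsetSum _ (fun s _ => hmeas _ _)]
      rw [Fintype.sum_prod_type]
      rw [Fin.sum_univ_eq_sum_range (fun p => ∑ b' : Fin n → Bool, ∫⁻ ω, HH M p b' ω ∂μ)]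
    rw [this]
    refine lintegral_mono fun ω => Finset.sum_le_sum fun s _ => ?_
    exact HH_le_gain M L s.1 s.2 ω (adv ω s)
  have hdiv : ∫⁻ ω, (∑ s : SeedL L n, ∑ e ∈ (ruleL M L).run (fun i => (ω i).1) s (fun i => (ω i).2)
          (List.ofFn (adv ω s)), ((ω e).2 : ℝ≥0∞)) / (Fintype.card (SeedL L n) : ℝ≥0∞) ∂μ =
      (∫⁻ ω, ∑ s : SeedL L n, ∑ e ∈ (ruleL M L).run (fun i => (ω i).1) s (fun i => (ω i).2)
          (List.ofFn (adv ω s)), ((ω e).2 : ℝ≥0∞) ∂μ) / (Q * P) := by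
    rw [hcard]
    simp only [div_eq_mul_inv]
    rw [lintegral_mul_const' _ _ (ENNReal.inv_ne_top.mpr (mul_ne_zero hQ0 hP0))]
  rw [hdiv]
  set X := ∫⁻ ω, optM M (fun e => (ω e).2) ∂μ
  set Y := ∫⁻ ω, ∑ s : SeedL L n, ∑ e ∈ (ruleL M L).run (fun i => (ω i).1) s (fun i => (ω i).2)
          (List.ofFn (adv ω s)), ((ω e).2 : ℝ≥0∞) ∂μ
  have hmain : P * X ≤ 252 * Y := step1.trans (by gcongr)
  have hQP0 : Q * P ≠ 0 := mul_ne_zero hQ0 hP0
  have hQPt : Q * P ≠ ∞ := ENNReal.mul_ne_top hQt hPt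
  have hD0 : (252 * Q : ℝ≥0∞) ≠ 0 := mul_ne_zero (by norm_num) hQ0
  have hDt : (252 * Q : ℝ≥0∞) ≠ ∞ := ENNReal.mul_ne_top (by finiteness) hQt
  rw [ENNReal.le_div_iff_mul_le (Or.inl hQP0) (Or.inl hQPt)]
  have h252 : (252 : ℝ≥0∞) ≠ 0 := by norm_num
  have h252t : (252 : ℝ≥0∞) ≠ ∞ := by finiteness
  calc 1 / (252 * ((L : ℝ≥0∞) + 1)) * X * (Q * P)
      = (252 * Q : ℝ≥0∞)⁻¹ * (Q * (P * X)) := by rw [one_div]; ring
    _ ≤ (252 * Q : ℝ≥0∞)⁻¹ * (Q * (252 * Y)) := by gcongr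
    _ = Y := by
        have : Q * (252 * Y) = (252 * Q) * Y := by ring
        rw [this, ← mul_assoc, ENNReal.inv_mul_cancel hD0 hDt, one_mul]

open Classical in
theorem main_ineqL (M : Matroid (Fin n)) (r : ℕ)
    (hr : ∀ I : Finset (Fin n), M.Indep (I : Set (Fin n)) → I.card ≤ r)
    (D : Fin n → Measure ℝ≥0) (hD : ∀ e, IsProbabilityMeasure (D e))
    (adv : (Fin n → ℝ≥0 × ℝ≥0) → SeedL (Nat.log 2 r) n → Equiv.Perm (Fin n)) :
    (1 / (252 * ((Nat.log 2 r : ℕ) + 1)) : ℝ≥0∞) * ∫⁻ ω, optM M (fun e => (ω e).2) ∂(jointLaw D) ≤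
      ∫⁻ ω, (∑ s : SeedL (Nat.log 2 r) n, ∑ e ∈ (ruleL M (Nat.log 2 r)).run (fun i => (ω i).1) s
          (fun i => (ω i).2) (List.ofFn (adv ω s)), ((ω e).2 : ℝ≥0∞)) /
          (Fintype.card (SeedL (Nat.log 2 r) n) : ℝ≥0∞)
        ∂(jointLaw D) :=
  main_ineqL' M r _ rfl hr D hD adv

end Vale.Agent.Lib.P331.Log
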